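import Mathlib
import Vale.Agent.P231.Fm.Param

/-!
# P267, UNI-RADIAL: the radial homotopy operators on differential forms

Mathlib forms `E → E [⋀^Fin k]→L[ℝ] F` on a finite dimensional real normed space.
-/

open ContinuousAlternatingMap MeasureTheory Set Filter Topology
open scoped ContDiff

namespace Vale.Agent.P267.H68

section Algebra

variable {E F : Type*} [NormedAddCommGroup E] [NormedSpace ℝ E]
  [NormedAddCommGroup F] [NormedSpace ℝ F]

/-- currying as a continuous linear map -/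
noncomputable def curL {k : ℕ} :
    (E [⋀^Fin (k + 1)]→L[ℝ] F) →L[ℝ] (E →L[ℝ] E [⋀^Fin k]→L[ℝ] F) :=
  (curryLeftLI : (E [⋀^Fin (k + 1)]→L[ℝ] F) →ₗᵢ[ℝ] _).toContinuousLinearMap

@[simp] theorem curL_apply {k : ℕ} (f : E [⋀^Fin (k + 1)]→L[ℝ] F) : curL f = f.curryLeft := rfl

/-- interior product with a vector, as a continuous linear map -/
noncomputable def iota {k : ℕ} (w : E) :
    (E [⋀^Fin (k + 1)]→L[ℝ] F) →L[ℝ] (E [⋀^Fin k]→L[ℝ] F) :=
  (ContinuousLinearMap.apply ℝ (E [⋀^Fin k]→L[ℝ] F) w) ∘L curL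

@[simp] theorem iota_apply {k : ℕ} (w : E) (f : E [⋀^Fin (k + 1)]→L[ℝ] F) :
    iota w f = f.curryLeft w := rfl

theorem iota_apply_apply {k : ℕ} (w : E) (f : E [⋀^Fin (k + 1)]→L[ℝ] F) (v : Fin k → E) :
    iota w f v = f (Matrix.vecCons w v) := rfl

theorem curryLeft_alternatize {k : ℕ} (D : E →L[ℝ] E [⋀^Fin (k + 1)]→L[ℝ] F) (w : E) :
    (alternatizeUncurryFin D).curryLeft w = D w - alternatizeUncurryFin (iota w ∘L D) := by
  ext v
  rw [curryLeft_apply_apply, alternatizeUncurryFin_apply, Fin.sum_univ_succ,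
    ContinuousAlternatingMap.sub_apply,
    alternatizeUncurryFin_apply, sub_eq_add_neg, ← Finset.sum_neg_distrib]
  congr 1
  · simp [Fin.removeNth_zero]
  · refine Finset.sum_congr rfl fun j _ => ?_
    have h : Fin.removeNth j.succ (Matrix.vecCons w v) = Matrix.vecCons w (Fin.removeNth j v) := by
      funext i
      refine Fin.cases ?_ (fun l => ?_) i
      · simp [Fin.removeNth]
      · simp [Fin.removeNth, Fin.succ_succAbove_succ]
    rw [h]
    simp [pow_succ]

/-- the radial integrand in degree `k + 1` -/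
noncomputable def hI (p : E) {k : ℕ} (β : E → E [⋀^Fin (k + 1)]→L[ℝ] F) (x : E) (t : ℝ) :
    E [⋀^Fin k]→L[ℝ] F :=
  t ^ k • iota (x - p) (β (p + t • (x - p)))

theorem hasFDerivAt_hI (p : E) {k : ℕ} {β : E → E [⋀^Fin (k + 1)]→L[ℝ] F} {x : E} {t : ℝ}
    (hβ : DifferentiableAt ℝ β (p + t • (x - p))) :
    HasFDerivAt (fun y => hI p β y t)
      (t ^ k • (t • (iota (x - p) ∘L fderiv ℝ β (p + t • (x - p))) +
        (β (p + t • (x - p))).curryLeft)) x := by
  have h1 : HasFDerivAt (fun y : E => p + t • (y - p)) (t • ContinuousLinearMap.id ℝ E) x :=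
    (((hasFDerivAt_id x).sub_const p).const_smul t).const_add p
  have h2 := hβ.hasFDerivAt.comp x h1
  have h3 : HasFDerivAt (fun y : E => curL (β (p + t • (y - p))))
      (curL ∘L (fderiv ℝ β (p + t • (x - p)) ∘L (t • ContinuousLinearMap.id ℝ E))) x :=
    HasFDerivAt.comp (g := fun f : E [⋀^Fin (k + 1)]→L[ℝ] F => curL f) x
      (curL (k := k) (E := E) (F := F)).hasFDerivAt h2
  have h4 := h3.clm_apply ((hasFDerivAt_id x).sub_const p)
  have h5 := h4.const_smul (t ^ k)
  refine h5.congr_fderiv ?_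
  ext u v
  simp [ContinuousLinearMap.flip_apply, smul_add, add_comm]

/-- the infinitesimal homotopy formula -/
theorem homotopy_pointwise (p : E) {k : ℕ} {β : E → E [⋀^Fin (k + 1)]→L[ℝ] F} {x : E} {t : ℝ}
    (hβ : DifferentiableAt ℝ β (p + t • (x - p))) :
    alternatizeUncurryFin (fderiv ℝ (fun y => hI p β y t) x) + hI p (extDeriv β) x t =
      t ^ (k + 1) • fderiv ℝ β (p + t • (x - p)) (x - p) +
        ((k + 1 : ℕ) * t ^ k : ℝ) • β (p + t • (x - p)) := by
  rw [(hasFDerivAt_hI p hβ).fderiv, hI, iota_apply, extDeriv, curryLeft_alternatize,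
    alternatizeUncurryFin_smul, alternatizeUncurryFin_add, alternatizeUncurryFin_smul,
    alternatizeUncurryFin_curryLeft]
  have : (((k + 1 : ℕ) : ℝ)) • β (p + t • (x - p)) = (k + 1) • β (p + t • (x - p)) := by
    rw [Nat.cast_smul_eq_nsmul]
  rw [mul_comm, mul_smul, this, smul_sub (t ^ (k + 1)), pow_succ, smul_add, smul_smul]
  generalize (t ^ k * t) • alternatizeUncurryFin (iota (x - p) ∘L fderiv ℝ β (p + t • (x - p))) = A
  generalize (t ^ k * t) • fderiv ℝ β (p + t • (x - p)) (x - p) = B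
  generalize t ^ k • (k + 1) • β (p + t • (x - p)) = C
  abel

/-- the same, as a time derivative -/
theorem hasDerivAt_homotopy (p : E) {k : ℕ} {β : E → E [⋀^Fin (k + 1)]→L[ℝ] F} {x : E} {t : ℝ}
    (hβ : DifferentiableAt ℝ β (p + t • (x - p))) :
    HasDerivAt (fun s : ℝ => s ^ (k + 1) • β (p + s • (x - p)))
      (alternatizeUncurryFin (fderiv ℝ (fun y => hI p β y t) x) + hI p (extDeriv β) x t) t := by
  rw [homotopy_pointwise p hβ]
  have h1 : HasDerivAt (fun s : ℝ => p + s • (x - p)) (x - p) t := by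
    simpa using ((hasDerivAt_id t).smul_const (x - p)).const_add p
  have h2 := hβ.hasFDerivAt.comp_hasDerivAt t h1
  have h3 := (hasDerivAt_pow (k + 1) t).smul h2
  refine h3.congr_deriv ?_
  simp

end Algebra

end Vale.Agent.P267.H68
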