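import Mathlib
import Vale.Agent.P231.Fm.Param
import Vale.Agent.P267.H68.Radial

/-!
# P267: the cone operator and the Poincaré lemma on star convex open sets

Mathlib forms `E → E [⋀^Fin k]→L[ℝ] F`, `extDeriv`.
-/

open ContinuousAlternatingMap MeasureTheory Set Filter Topology
open scoped ContDiff Manifold

namespace Vale.Agent.P267.H68

section Time

variable {E : Type*} [NormedAddCommGroup E] [NormedSpace ℝ E]
variable {V : Type*} [NormedAddCommGroup V] [NormedSpace ℝ V] [CompleteSpace V]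

/-- the weight of the unit interval -/
noncomputable def w01 (t : ℝ) : ℝ := (Ioc (0 : ℝ) 1).indicator (fun _ => 1) t

theorem locallyIntegrable_w01 : LocallyIntegrable w01 volume := by
  have h : Integrable w01 volume := by
    have : IntegrableOn (fun _ : ℝ => (1 : ℝ)) (Ioc 0 1) volume :=
      integrableOn_const (by simp) (by simp)
    exact (integrable_indicator_iff measurableSet_Ioc).2 this
  exact h.locallyIntegrable

/-- a smooth cutoff in time -/
theorem exists_chi : ∃ χ : ℝ → ℝ, ContDiff ℝ ∞ χ ∧ (∀ t ∈ Icc (0 : ℝ) 1, χ t = 1) ∧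
    ∀ t ∉ Icc (-1 : ℝ) 2, χ t = 0 := by
  let f : ContDiffBump (1 / 2 : ℝ) := ⟨1 / 2, 3 / 2, by norm_num, by norm_num⟩
  refine ⟨f, f.contDiff, fun t ht => ?_, fun t ht => ?_⟩
  · refine f.one_of_mem_closedBall ?_
    rw [Metric.mem_closedBall, Real.dist_eq, abs_le]
    change -(1 / 2) ≤ _ ∧ _ ≤ 1 / 2
    constructor <;> linarith [ht.1, ht.2]
  · refine f.zero_of_le_dist ?_
    rw [Real.dist_eq]
    change 3 / 2 ≤ _
    rw [mem_Icc, not_and_or, not_le, not_le] at ht
    rcases ht with h | h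
    · rw [abs_of_neg (by linarith)]; linarith
    · rw [abs_of_pos (by linarith)]; linarith

omit [CompleteSpace V] in
theorem integral_w01 {χ : ℝ → ℝ} (h1 : ∀ t ∈ Icc (0 : ℝ) 1, χ t = 1) (g : ℝ → V) :
    ∫ t, w01 t • (χ t • g t) = ∫ t in (0 : ℝ)..1, g t := by
  rw [intervalIntegral.integral_of_le zero_le_one, ← integral_indicator measurableSet_Ioc]
  refine integral_congr_ae (Filter.Eventually.of_forall fun t => ?_)
  by_cases ht : t ∈ Ioc (0 : ℝ) 1
  · simp only [w01, indicator_of_mem ht, one_smul]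
    rw [h1 t ⟨ht.1.le, ht.2⟩, one_smul]
  · simp only [w01, indicator_of_notMem ht, zero_smul]

/-- smoothness of the time integral -/
theorem contDiffOn_time {n : ℕ∞} {U : Set E} (hU : IsOpen U) {g : E × ℝ → V}
    (hg : ContDiffOn ℝ n g (U ×ˢ univ)) : ContDiffOn ℝ n (fun x => ∫ t in (0 : ℝ)..1, g (x, t)) U := by
  obtain ⟨χ, hχ, h1, h2⟩ := exists_chi
  have hχ' : ContDiff ℝ n χ := hχ.of_le (by exact_mod_cast le_top)
  have hg' : ContDiffOn ℝ n (fun p : E × ℝ => χ p.2 • g p) (U ×ˢ univ) :=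
    (hχ'.comp contDiff_snd).contDiffOn.smul hg
  have h3 := P231.Fm.contDiffOn_param volume hU (isCompact_Icc (a := (-1 : ℝ)) (b := 2))
    locallyIntegrable_w01 hg' fun x _ t ht => by rw [h2 t ht, zero_smul]
  refine h3.congr fun x _ => ?_
  rw [integral_w01 h1]

/-- derivative of the time integral -/
theorem hasFDerivAt_time [FiniteDimensional ℝ E] {U : Set E} (hU : IsOpen U) {g : E × ℝ → V}
    (hg : ContDiffOn ℝ 1 g (U ×ˢ univ)) {x : E} (hx : x ∈ U) :
    HasFDerivAt (fun x => ∫ t in (0 : ℝ)..1, g (x, t))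
      (∫ t in (0 : ℝ)..1, fderiv ℝ g (x, t) ∘L ContinuousLinearMap.inl ℝ E ℝ) x := by
  obtain ⟨χ, hχ, h1, h2⟩ := exists_chi
  have hχ' : ContDiff ℝ 1 χ := hχ.of_le (by exact_mod_cast le_top)
  have hopen : IsOpen (U ×ˢ (univ : Set ℝ)) := hU.prod isOpen_univ
  have hg' : ContDiffOn ℝ 1 (fun p : E × ℝ => χ p.2 • g p) (U ×ˢ univ) :=
    (hχ'.comp contDiff_snd).contDiffOn.smul hg
  have h3 := P231.Fm.hasFDerivAt_param volume hU (isCompact_Icc (a := (-1 : ℝ)) (b := 2))
    locallyIntegrable_w01 hg' (fun x _ t ht => by rw [h2 t ht, zero_smul]) hx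
  have h4 : (fun x => ∫ t, w01 t • (χ t • g (x, t))) = fun x => ∫ t in (0 : ℝ)..1, g (x, t) := by
    funext z
    exact integral_w01 h1 _
  have h5 : ∀ t, fderiv ℝ (fun p : E × ℝ => χ p.2 • g p) (x, t) ∘L
      ContinuousLinearMap.inl ℝ E ℝ =
        χ t • (fderiv ℝ g (x, t) ∘L ContinuousLinearMap.inl ℝ E ℝ) := by
    intro t
    have hd : DifferentiableAt ℝ g (x, t) :=
      (hg.differentiableOn (by norm_num)).differentiableAt (hopen.mem_nhds ⟨hx, mem_univ _⟩)
    have hd2 : HasFDerivAt (fun p : E × ℝ => χ p.2)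
        (fderiv ℝ χ t ∘L ContinuousLinearMap.snd ℝ E ℝ) (x, t) :=
      ((hχ'.differentiable (by norm_num)) t).hasFDerivAt.comp (x, t) hasFDerivAt_snd
    rw [(hd2.fun_smul hd.hasFDerivAt).fderiv]
    ext u
    simp
  have h6 : ∫ t, w01 t • (fderiv ℝ (fun p : E × ℝ => χ p.2 • g p) (x, t) ∘L
      ContinuousLinearMap.inl ℝ E ℝ) =
      ∫ t in (0 : ℝ)..1, fderiv ℝ g (x, t) ∘L ContinuousLinearMap.inl ℝ E ℝ := by
    rw [← integral_w01 h1]
    exact integral_congr_ae (Filter.Eventually.of_forall fun t => by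
      change w01 t • _ = w01 t • _
      rw [h5])
  rw [← h6, ← h4]
  exact h3

end Time

section Gen

variable {E : Type*} [NormedAddCommGroup E] [NormedSpace ℝ E]
variable {W V : Type*} [NormedAddCommGroup W] [NormedSpace ℝ W] [NormedAddCommGroup V]
  [NormedSpace ℝ V]

theorem cd1 {n : WithTop ℕ∞} (A : (E →L[ℝ] W) →L[ℝ] V) : ContDiff ℝ n (fun f => A f) := A.contDiff

theorem cd2 {n : WithTop ℕ∞} (A : V →L[ℝ] (E →L[ℝ] W)) : ContDiff ℝ n (fun f => A f) := A.contDiff

theorem continuous_A_fderiv (A : (E →L[ℝ] W) →L[ℝ] V) {g : E × ℝ → W}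
    (hg : ContDiff ℝ 1 g) (x : E) :
    Continuous fun t : ℝ => A (fderiv ℝ (fun y => g (y, t)) x) := by
  have h4 : Continuous fun t : ℝ => fderiv ℝ g (x, t) ∘L ContinuousLinearMap.inl ℝ E ℝ :=
    ((hg.continuous_fderiv (by norm_num)).comp (Continuous.prodMk_right x)).clm_comp
      continuous_const
  refine A.continuous.comp (h4.congr fun t => ?_)
  exact ((((hg.differentiable (by norm_num) (x, t)).hasFDerivAt.comp x
    (hasFDerivAt_prodMk_left x t)).fderiv)).symm

theorem A_fderiv_time [CompleteSpace W] [CompleteSpace V] [FiniteDimensional ℝ E]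
    (A : (E →L[ℝ] W) →L[ℝ] V) {g : E × ℝ → W} (hg : ContDiff ℝ 1 g) (x : E) :
    A (fderiv ℝ (fun x => ∫ t in (0 : ℝ)..1, g (x, t)) x) =
      ∫ t in (0 : ℝ)..1, A (fderiv ℝ (fun y => g (y, t)) x) := by
  have h1 := hasFDerivAt_time (g := g) isOpen_univ hg.contDiffOn (mem_univ x)
  have h4 : Continuous fun t : ℝ => fderiv ℝ g (x, t) ∘L ContinuousLinearMap.inl ℝ E ℝ :=
    ((hg.continuous_fderiv (by norm_num)).comp (Continuous.prodMk_right x)).clm_comp
      continuous_const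
  rw [h1.fderiv, ← ContinuousLinearMap.intervalIntegral_comp_comm A (h4.intervalIntegrable _ _)]
  refine intervalIntegral.integral_congr fun t _ => ?_
  change A _ = A _
  rw [((hg.differentiable (by norm_num) (x, t)).hasFDerivAt.comp x
    (hasFDerivAt_prodMk_left x t)).fderiv.symm]
  rfl

end Gen

section Cone

variable {E F : Type*} [NormedAddCommGroup E] [NormedSpace ℝ E] [FiniteDimensional ℝ E]
  [NormedAddCommGroup F] [NormedSpace ℝ F] [CompleteSpace F]

/-- the cone operator from the point `p` -/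
noncomputable def coneK (p : E) {k : ℕ} (β : E → E [⋀^Fin (k + 1)]→L[ℝ] F) (x : E) :
    E [⋀^Fin k]→L[ℝ] F := ∫ t in (0 : ℝ)..1, hI p β x t

omit [FiniteDimensional ℝ E] [CompleteSpace F] in
theorem contDiff_hI (p : E) {k : ℕ} {β : E → E [⋀^Fin (k + 1)]→L[ℝ] F} {n : WithTop ℕ∞}
    (hβ : ContDiff ℝ n β) : ContDiff ℝ n (fun q : E × ℝ => hI p β q.1 q.2) := by
  have h1 : ContDiff ℝ n (fun q : E × ℝ => q.1 - p) := contDiff_fst.sub contDiff_const
  have h2 : ContDiff ℝ n (fun q : E × ℝ => p + q.2 • (q.1 - p)) :=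
    contDiff_const.add (contDiff_snd.smul h1)
  have h3 : ContDiff ℝ n (fun q : E × ℝ => curL (β (p + q.2 • (q.1 - p)))) :=
    (cd2 (W := E [⋀^Fin k]→L[ℝ] F) (V := E [⋀^Fin (k + 1)]→L[ℝ] F) curL).comp (hβ.comp h2)
  exact (contDiff_snd.pow k).smul (h3.clm_apply h1)

/-- the homotopy formula for globally smooth forms -/
theorem extDeriv_coneK_of_contDiff (p : E) {k : ℕ} {β : E → E [⋀^Fin (k + 1)]→L[ℝ] F}
    (hβ : ContDiff ℝ 2 β) (x : E) :
    extDeriv (coneK p β) x + coneK p (extDeriv β) x = β x := by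
  have hβ1 : ContDiff ℝ 1 β := hβ.of_le (by norm_num)
  have hg1 : ContDiff ℝ 1 (fun q : E × ℝ => hI p β q.1 q.2) := contDiff_hI p hβ1
  have h2 : extDeriv (coneK p β) x =
      ∫ t in (0 : ℝ)..1, alternatizeUncurryFin (fderiv ℝ (fun y => hI p β y t) x) :=
    A_fderiv_time (W := E [⋀^Fin k]→L[ℝ] F) (V := E [⋀^Fin (k + 1)]→L[ℝ] F)
      (alternatizeUncurryFinCLM ℝ E F) hg1 x
  have hd : ContDiff ℝ 1 (extDeriv β) := by
    have h5 : ContDiff ℝ 1 (fderiv ℝ β) := hβ.fderiv_right (m := 1) (by norm_num)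
    exact (cd1 (W := E [⋀^Fin (k + 1)]→L[ℝ] F) (V := E [⋀^Fin (k + 1 + 1)]→L[ℝ] F)
      (alternatizeUncurryFinCLM ℝ E F)).comp h5
  have hc1 : Continuous fun t : ℝ => alternatizeUncurryFin (fderiv ℝ (fun y => hI p β y t) x) :=
    continuous_A_fderiv (W := E [⋀^Fin k]→L[ℝ] F) (V := E [⋀^Fin (k + 1)]→L[ℝ] F)
      (alternatizeUncurryFinCLM ℝ E F) hg1 x
  have hc2 : Continuous fun t : ℝ => hI p (extDeriv β) x t :=
    (contDiff_hI p hd).continuous.comp (Continuous.prodMk_right x)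
  rw [h2, coneK, ← intervalIntegral.integral_add (hc1.intervalIntegrable _ _)
    (hc2.intervalIntegrable _ _)]
  have h6 : ∀ t ∈ uIcc (0 : ℝ) 1, HasDerivAt (fun s : ℝ => s ^ (k + 1) • β (p + s • (x - p)))
      (alternatizeUncurryFin (fderiv ℝ (fun y => hI p β y t) x) + hI p (extDeriv β) x t) t :=
    fun t _ => hasDerivAt_homotopy p (hβ.differentiable (by norm_num) _)
  rw [intervalIntegral.integral_eq_sub_of_hasDerivAt h6 ((hc1.add hc2).intervalIntegrable _ _)]
  simp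

omit [CompleteSpace F] in
/-- cutting off a form near a segment -/
theorem exists_cut (p : E) {k : ℕ} {β : E → E [⋀^Fin (k + 1)]→L[ℝ] F} {U : Set E}
    (hU : IsOpen U) (hst : StarConvex ℝ p U) (hβ : ContDiffOn ℝ ∞ β U) {x : E} (hx : x ∈ U) :
    ∃ β' : E → E [⋀^Fin (k + 1)]→L[ℝ] F, ContDiff ℝ ∞ β' ∧ ∃ W ∈ 𝓝 x, W ⊆ U ∧
      ∀ y ∈ W, ∀ t ∈ Icc (0 : ℝ) 1, β' =ᶠ[𝓝 (p + t • (y - p))] β := by
  set S : Set E := (fun t : ℝ => p + t • (x - p)) '' Icc 0 1 with hS
  have hSc : IsCompact S := isCompact_Icc.image (by fun_prop)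
  have hSU : S ⊆ U := by
    rintro _ ⟨t, ht, rfl⟩
    have := hst hx (a := 1 - t) (b := t) (by linarith [ht.2]) ht.1 (by ring)
    convert this using 1
    module
  obtain ⟨η, h0, h1, -⟩ := exists_contMDiffMap_zero_one_nhds_of_isClosed 𝓘(ℝ, E)
    (n := (⊤ : ℕ∞)) hU.isClosed_compl hSc.isClosed
    (by rw [Set.disjoint_left]; intro z hz hz2; exact hz (hSU hz2))
  have hη : ContDiff ℝ ∞ (fun z => η z) := η.contMDiff.contDiff
  obtain ⟨V, hVo, hSV, hV⟩ := mem_nhdsSet_iff_exists.1 h1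
  refine ⟨fun z => η z • β z, ?_, U ∩ {y | ∀ t ∈ Icc (0 : ℝ) 1, p + t • (y - p) ∈ V}, ?_,
    inter_subset_left, ?_⟩
  · rw [contDiff_iff_contDiffAt]
    intro z
    by_cases hz : z ∈ U
    · exact (hη.contDiffAt).smul (hβ.contDiffAt (hU.mem_nhds hz))
    · have h2 : ∀ᶠ w in 𝓝 z, η w = 0 := (mem_nhdsSet_iff_forall.1 h0) z hz
      have h3 : (fun w => η w • β w) =ᶠ[𝓝 z] fun _ => 0 := by
        filter_upwards [h2] with w hw
        rw [hw, zero_smul]
      exact contDiffAt_const.congr_of_eventuallyEq h3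
  · refine inter_mem (hU.mem_nhds hx) ?_
    refine (isCompact_Icc (a := (0 : ℝ)) (b := 1)).eventually_forall_of_forall_eventually ?_
    intro t ht
    have hcont : Continuous fun q : E × ℝ => p + q.2 • (q.1 - p) := by fun_prop
    exact hcont.continuousAt (hVo.mem_nhds (hSV ⟨t, ht, rfl⟩))
  · rintro y ⟨-, hy⟩ t ht
    filter_upwards [hVo.mem_nhds (hy t ht)] with z hz
    have : η z = 1 := hV hz
    simp [this]

omit [CompleteSpace F] [FiniteDimensional ℝ E] in
theorem hI_congr {p : E} {k : ℕ} {β β' : E → E [⋀^Fin (k + 1)]→L[ℝ] F} {x : E} {t : ℝ}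
    (h : β (p + t • (x - p)) = β' (p + t • (x - p))) : hI p β x t = hI p β' x t := by
  rw [hI, hI, h]

omit [CompleteSpace F] [FiniteDimensional ℝ E] in
theorem coneK_congr {p : E} {k : ℕ} {β β' : E → E [⋀^Fin (k + 1)]→L[ℝ] F} {x : E}
    (h : ∀ t ∈ Icc (0 : ℝ) 1, β (p + t • (x - p)) = β' (p + t • (x - p))) :
    coneK p β x = coneK p β' x := by
  refine intervalIntegral.integral_congr fun t ht => ?_
  rw [uIcc_of_le zero_le_one] at ht
  exact hI_congr (h t ht)

/-- the cone operator preserves smoothness on star convex open sets -/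
theorem contDiffOn_coneK {p : E} {k : ℕ} {β : E → E [⋀^Fin (k + 1)]→L[ℝ] F} {U : Set E}
    (hU : IsOpen U) (hst : StarConvex ℝ p U) (hβ : ContDiffOn ℝ ∞ β U) :
    ContDiffOn ℝ ∞ (coneK p β) U := by
  intro x hx
  obtain ⟨β', hβ', W, hW, -, h⟩ := exists_cut p hU hst hβ hx
  have h1 : ContDiff ℝ ∞ (coneK p β') := by
    rw [← contDiffOn_univ]
    exact contDiffOn_time (n := ⊤) (g := fun q : E × ℝ => hI p β' q.1 q.2) isOpen_univ
      (contDiff_hI p hβ').contDiffOn
  refine ContDiffAt.contDiffWithinAt (h1.contDiffAt.congr_of_eventuallyEq ?_)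
  filter_upwards [hW] with y hy
  exact coneK_congr fun t ht => (h y hy t ht).self_of_nhds.symm

/-- **Homotopy formula** for the cone operator on star convex open sets. -/
theorem extDeriv_coneK {p : E} {k : ℕ} {β : E → E [⋀^Fin (k + 1)]→L[ℝ] F} {U : Set E}
    (hU : IsOpen U) (hst : StarConvex ℝ p U) (hβ : ContDiffOn ℝ ∞ β U) {x : E} (hx : x ∈ U) :
    extDeriv (coneK p β) x + coneK p (extDeriv β) x = β x := by
  obtain ⟨β', hβ', W, hW, -, h⟩ := exists_cut p hU hst hβ hx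
  have h1 := extDeriv_coneK_of_contDiff p (hβ'.of_le (by norm_cast)) x
  have h2 : extDeriv (coneK p β) x = extDeriv (coneK p β') x := by
    refine EventuallyEq.extDeriv_eq ?_
    filter_upwards [hW] with y hy
    exact coneK_congr fun t ht => (h y hy t ht).self_of_nhds.symm
  have h3 : coneK p (extDeriv β) x = coneK p (extDeriv β') x :=
    coneK_congr fun t ht => (h x (mem_of_mem_nhds hW) t ht).symm.extDeriv_eq
  have h4 : β' x = β x := by
    have := (h x (mem_of_mem_nhds hW) 1 ⟨zero_le_one, le_rfl⟩).self_of_nhds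
    simpa using this
  rw [h2, h3, h1, h4]

/-- **Poincaré lemma**: a closed smooth form of positive degree on a star convex open set is
exact. -/
theorem exists_primitive {p : E} {k : ℕ} {β : E → E [⋀^Fin (k + 1)]→L[ℝ] F} {U : Set E}
    (hU : IsOpen U) (hst : StarConvex ℝ p U) (hβ : ContDiffOn ℝ ∞ β U)
    (hc : ∀ x ∈ U, extDeriv β x = 0) :
    ∃ γ : E → E [⋀^Fin k]→L[ℝ] F, ContDiffOn ℝ ∞ γ U ∧ ∀ x ∈ U, extDeriv γ x = β x := by
  refine ⟨coneK p β, contDiffOn_coneK hU hst hβ, fun x hx => ?_⟩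
  have h1 := extDeriv_coneK hU hst hβ hx
  have h2 : coneK p (extDeriv β) x = 0 := by
    have h3 : coneK p (extDeriv β) x = coneK p (0 : E → E [⋀^Fin (k + 1 + 1)]→L[ℝ] F) x := by
      refine coneK_congr fun t ht => ?_
      have := hst hx (a := 1 - t) (b := t) (by linarith [ht.2]) ht.1 (by ring)
      have h4 : p + t • (x - p) ∈ U := by
        convert this using 1
        module
      rw [hc _ h4]
      rfl
    rw [h3, coneK]
    simp [hI]
  rw [h2, add_zero] at h1
  exact h1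

end Cone

end Vale.Agent.P267.H68
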